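import Vale.Agent.Lib.P224.Defs

namespace Vale.Agent.Lib.P224

open Real

/-- Wendel's inequality `Γ(x + 1/2) ≤ sqrt x * Γ(x)`. -/
theorem gamma_add_half_le {x : ℝ} (hx : 0 < x) :
    Real.Gamma (x + 1 / 2) ≤ Real.sqrt x * Real.Gamma x := by
  have h := Real.Gamma_mul_add_mul_le_rpow_Gamma_mul_rpow_Gamma (s := x) (t := x + 1)
    (a := 1 / 2) (b := 1 / 2) hx (by linarith) (by norm_num) (by norm_num) (by norm_num)
  have e : (1:ℝ) / 2 * x + 1 / 2 * (x + 1) = x + 1 / 2 := by ring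
  rw [e, Real.Gamma_add_one hx.ne'] at h
  have hG : 0 < Real.Gamma x := Real.Gamma_pos_of_pos hx
  have e2 : Real.Gamma x ^ ((1:ℝ) / 2) * (x * Real.Gamma x) ^ ((1:ℝ) / 2)
      = Real.sqrt x * Real.Gamma x := by
    rw [Real.mul_rpow hx.le hG.le, ← mul_assoc, mul_comm (Real.Gamma x ^ ((1:ℝ) / 2)),
      mul_assoc, ← Real.rpow_add hG, Real.sqrt_eq_rpow]
    norm_num
  rw [e2] at h
  exact h

end Vale.Agent.Lib.P224

namespace Vale.Agent.Lib.P224

open Real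

theorem sphereVol_pos (n : ℕ) : 0 < sphereVol n := by
  unfold sphereVol
  have h1 : 0 < Real.Gamma (((n : ℝ) + 1) / 2) := Real.Gamma_pos_of_pos (by positivity)
  have h2 : 0 < Real.pi ^ (((n : ℝ) + 1) / 2) := Real.rpow_pos_of_pos Real.pi_pos _
  positivity

theorem sphereVol_one : sphereVol 1 = 2 * Real.pi := by
  unfold sphereVol
  have : (((1 : ℕ) : ℝ) + 1) / 2 = 1 := by norm_num
  rw [this, Real.rpow_one, Real.Gamma_one, div_one]

/-- `((m-1)/m)^((m-1)/2) ≤ 1/sqrt 2` for `m ≥ 2`. -/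
theorem base_pow_le {m : ℕ} (hm : 2 ≤ m) :
    (((m : ℝ) - 1) / m) ^ (((m : ℝ) - 1) / 2) ≤ 1 / Real.sqrt 2 := by
  obtain ⟨n, rfl⟩ : ∃ n, m = n + 1 := ⟨m - 1, by omega⟩
  have hn : 1 ≤ n := by omega
  have hnpos : (0:ℝ) < n := by exact_mod_cast hn
  have e1 : (((n + 1 : ℕ) : ℝ) - 1) = n := by push_cast; ring
  rw [e1]
  have hbase : (0:ℝ) ≤ (n:ℝ) / ((n + 1 : ℕ) : ℝ) := by positivity
  have e2 : ((n:ℝ) / ((n + 1 : ℕ) : ℝ)) ^ ((n:ℝ) / 2)
      = (((n:ℝ) / ((n + 1 : ℕ) : ℝ)) ^ n) ^ ((1:ℝ) / 2) := by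
    rw [← Real.rpow_natCast, ← Real.rpow_mul hbase]
    congr 1
    ring
  rw [e2]
  have hB : (2:ℝ) ≤ (1 + 1 / (n:ℝ)) ^ n := by
    have := one_add_mul_le_pow (show (-2:ℝ) ≤ 1 / (n:ℝ) by
      have : (0:ℝ) ≤ 1 / (n:ℝ) := by positivity
      linarith) n
    have e : 1 + (n:ℝ) * (1 / (n:ℝ)) = 2 := by
      field_simp
      norm_num
    linarith
  have hpow : ((n:ℝ) / ((n + 1 : ℕ) : ℝ)) ^ n ≤ 1 / 2 := by
    have e : (n:ℝ) / ((n + 1 : ℕ) : ℝ) = (1 + 1 / (n:ℝ))⁻¹ := by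
      push_cast
      field_simp
    rw [e, inv_pow]
    rw [inv_eq_one_div]
    exact one_div_le_one_div_of_le (by norm_num) hB
  have h3 : (((n:ℝ) / ((n + 1 : ℕ) : ℝ)) ^ n) ^ ((1:ℝ) / 2) ≤ ((1:ℝ) / 2) ^ ((1:ℝ) / 2) :=
    Real.rpow_le_rpow (by positivity) hpow (by norm_num)
  have h4 : ((1:ℝ) / 2) ^ ((1:ℝ) / 2) = 1 / Real.sqrt 2 := by
    rw [← Real.sqrt_eq_rpow, Real.sqrt_div' 1 (by norm_num : (0:ℝ) ≤ 2), Real.sqrt_one]
  rw [h4] at h3
  exact h3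

/-- The minimal Clifford product `C_{1,m-1}` has volume less than `2 |S^m|`
(in fact at most `sqrt π * |S^m|`). -/
theorem cliffordVol_one_le (m : ℕ) (hm : 2 ≤ m) :
    cliffordVol m 1 ≤ Real.sqrt Real.pi * sphereVol m := by
  have hmpos : (0:ℝ) < m := by
    have : (2:ℝ) ≤ m := by exact_mod_cast hm
    linarith
  unfold cliffordVol
  rw [sphereVol_one]
  have hcast : (((m - 1 : ℕ) : ℝ)) = (m:ℝ) - 1 := by
    have : 1 ≤ m := by omega
    push_cast [Nat.cast_sub this]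
    ring
  have e1 : sphereVol (m - 1) = 2 * Real.pi ^ ((m:ℝ) / 2) / Real.Gamma ((m:ℝ) / 2) := by
    unfold sphereVol
    rw [hcast]
    have : ((m:ℝ) - 1 + 1) / 2 = (m:ℝ) / 2 := by ring
    rw [this]
  have e2 : sphereVol m = 2 * (Real.pi ^ ((m:ℝ) / 2) * Real.sqrt Real.pi)
      / Real.Gamma ((m:ℝ) / 2 + 1 / 2) := by
    unfold sphereVol
    have h1 : ((m:ℝ) + 1) / 2 = (m:ℝ) / 2 + 1 / 2 := by ring
    rw [h1, Real.rpow_add Real.pi_pos, Real.sqrt_eq_rpow]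
  rw [e1, e2]
  simp only [Nat.cast_one]
  set P : ℝ := Real.pi ^ ((m:ℝ) / 2) with hP
  have hPpos : 0 < P := Real.rpow_pos_of_pos Real.pi_pos _
  set G1 : ℝ := Real.Gamma ((m:ℝ) / 2) with hG1
  set G2 : ℝ := Real.Gamma ((m:ℝ) / 2 + 1 / 2) with hG2
  have hG1pos : 0 < G1 := Real.Gamma_pos_of_pos (by positivity)
  have hG2pos : 0 < G2 := Real.Gamma_pos_of_pos (by positivity)
  have hW : G2 ≤ Real.sqrt ((m:ℝ) / 2) * G1 := gamma_add_half_le (by positivity)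
  have ha : ((1:ℝ) / m) ^ ((1:ℝ) / 2) = 1 / Real.sqrt m := by
    rw [← Real.sqrt_eq_rpow, Real.sqrt_div' 1 hmpos.le, Real.sqrt_one]
  have hb := base_pow_le hm
  set b : ℝ := (((m : ℝ) - 1) / m) ^ (((m : ℝ) - 1) / 2) with hbdef
  have hb0 : 0 ≤ b := by
    apply Real.rpow_nonneg
    have : (1:ℝ) ≤ m := by linarith [show (2:ℝ) ≤ m by exact_mod_cast hm]
    apply div_nonneg <;> linarith
  rw [ha]
  have hsm : 0 < Real.sqrt m := Real.sqrt_pos.mpr hmpos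
  have hs2 : 0 < Real.sqrt 2 := Real.sqrt_pos.mpr (by norm_num)
  have hspi : 0 < Real.sqrt Real.pi := Real.sqrt_pos.mpr Real.pi_pos
  have hsm2 : Real.sqrt ((m:ℝ) / 2) = Real.sqrt m / Real.sqrt 2 :=
    Real.sqrt_div' _ (by norm_num)
  rw [hsm2] at hW
  have hpi : Real.pi = Real.sqrt Real.pi * Real.sqrt Real.pi :=
    (Real.mul_self_sqrt Real.pi_pos.le).symm
  have hspi2 : Real.sqrt Real.pi < 2 := by
    rw [Real.sqrt_lt' (by norm_num)]
    have := Real.pi_lt_four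
    norm_num
    linarith
  -- left side is at most (1/sqrt m)(1/sqrt 2)(2 pi)(2P/G1)
  have hL : 1 / Real.sqrt m * b * (2 * Real.pi) * (2 * P / G1)
      ≤ 1 / Real.sqrt m * (1 / Real.sqrt 2) * (2 * Real.pi) * (2 * P / G1) := by
    have hc : 0 ≤ 1 / Real.sqrt m := by positivity
    have hd : 0 ≤ (2 * Real.pi) * (2 * P / G1) := by positivity
    have := mul_le_mul_of_nonneg_left hb hc
    nlinarith [mul_le_mul_of_nonneg_right this hd]
  -- right side is at least sqrt pi * 2 P sqrt pi sqrt 2 / (sqrt m G1)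
  have hR : Real.sqrt Real.pi * (2 * (P * Real.sqrt Real.pi) / (Real.sqrt m / Real.sqrt 2 * G1))
      ≤ Real.sqrt Real.pi * (2 * (P * Real.sqrt Real.pi) / G2) := by
    apply mul_le_mul_of_nonneg_left _ hspi.le
    apply div_le_div_of_nonneg_left (by positivity) hG2pos hW
  have h22 : Real.sqrt 2 * Real.sqrt 2 = 2 := Real.mul_self_sqrt (by norm_num)
  have hmid : 1 / Real.sqrt m * (1 / Real.sqrt 2) * (2 * Real.pi) * (2 * P / G1)
      = Real.sqrt Real.pi * (2 * (P * Real.sqrt Real.pi) / (Real.sqrt m / Real.sqrt 2 * G1)) := by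
    field_simp
    rw [Real.sq_sqrt (by norm_num : (0:ℝ) ≤ 2), Real.sq_sqrt Real.pi_pos.le]
  linarith

/-- The Clifford value is below twice the volume of the equator. -/
theorem cliffordVol_one_lt_two (m : ℕ) (hm : 2 ≤ m) :
    cliffordVol m 1 < 2 * sphereVol m := by
  have h1 := cliffordVol_one_le m hm
  have h2 : Real.sqrt Real.pi < 2 := by
    rw [Real.sqrt_lt' (by norm_num)]
    have := Real.pi_lt_four
    norm_num
    linarith
  have h3 := sphereVol_pos m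
  nlinarith

end Vale.Agent.Lib.P224
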