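import Mathlib

/-!
# Volumes of round spheres and of the minimal Clifford products
-/

namespace Vale.Agent.Lib.P224

/-- The volume `|S^n| = 2 π^((n+1)/2) / Γ((n+1)/2)` of the unit round sphere
`S^n ⊂ ℝ^(n+1)`. -/
noncomputable def sphereVol (n : ℕ) : ℝ :=
  2 * Real.pi ^ (((n : ℝ) + 1) / 2) / Real.Gamma (((n : ℝ) + 1) / 2)

/-- The volume of the minimal Clifford product
`C_{k,m-k} = S^k(sqrt(k/m)) × S^(m-k)(sqrt((m-k)/m)) ⊂ S^(m+1)`, namely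
`(k/m)^(k/2) * ((m-k)/m)^((m-k)/2) * |S^k| * |S^(m-k)|`. -/
noncomputable def cliffordVol (m k : ℕ) : ℝ :=
  ((k : ℝ) / m) ^ ((k : ℝ) / 2) * (((m : ℝ) - k) / m) ^ (((m : ℝ) - k) / 2) *
    sphereVol k * sphereVol (m - k)

end Vale.Agent.Lib.P224
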